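import Vale.Agent.Lib.P061.Main

open Vale.Agent.Lib.P061 Classical in
/-- Strong thin trees exist for bounded pathwidth: for every width `w` the thinness
`C / k` holds with `C = 64 (w+1)^5 (2w+3)^w`, independent of `k` and of the number of vertices. -/
theorem Vale.Agent.Results.P061.BoundedPathwidth.result
    {V E : Type*} [Fintype V] [Nonempty V] [Fintype E]
    (src tgt : E → V) (k : ℕ) (hk : 0 < k) (hconn : IsKEdgeConnected src tgt k)
    {m : ℕ} (bag : Fin m → Finset V) (w : ℕ) (hbag : IsPathDecomposition src tgt bag w) :
    ∃ T : Finset E, IsSpanningTree src tgt T ∧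
      ∀ S : Finset V, S.Nonempty → S ≠ Finset.univ →
        k * (T ∩ cut src tgt S).card ≤
          64 * (w + 1) ^ 5 * (2 * w + 3) ^ w * (cut src tgt S).card :=
  thin_tree_of_pathwidth src tgt k hk hconn bag w hbag
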